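import Mathlib.Algebra.Polynomial.Eval.Defs
import Vale.Agent.P335.Chain

namespace Vale.Agent.Results.P335.KTV

open Vale.Agent.P335

theorem result :
    (∀ n : ℕ, 4 ≤ n → ∀ d : Fin n → ℕ, (Omega d).Nonempty →
      (mixedTimes d).Nonempty ∧ tmix d ≤ n ^ 6) ∧
    ∃ p : Polynomial ℝ, ∀ n : ℕ, 4 ≤ n → ∀ d : Fin n → ℕ, (Omega d).Nonempty →
      (mixedTimes d).Nonempty ∧ (tmix d : ℝ) ≤ p.eval (n : ℝ) := by
  refine ⟨fun n hn d _ => ⟨⟨_, mixed_pow hn d⟩, Nat.sInf_le (mixed_pow hn d)⟩,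
    Polynomial.X ^ 6, fun n hn d _ => ⟨⟨_, mixed_pow hn d⟩, ?_⟩⟩
  rw [Polynomial.eval_pow, Polynomial.eval_X]
  exact_mod_cast (Nat.sInf_le (mixed_pow hn d) : tmix d ≤ n ^ 6)

end Vale.Agent.Results.P335.KTV
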